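import Vale.Agent.P069.Defs

namespace Vale.Agent.P069

open Filter Topology

variable {Y : Type} [NormedAddCommGroup Y] [NormedSpace ℝ Y]

theorem exists_near_cof {F : Submodule ℝ Y} (hF : IsCof F) (z : ℕ → Y)
    (hz : ∀ φ : Y →L[ℝ] ℝ, Tendsto (fun k => φ (z k)) atTop (𝓝 0)) {η : ℝ} (hη : 0 < η) :
    ∃ k, ∃ y ∈ F, ‖z k - y‖ < η := by
  have : IsClosed (F : Set Y) := hF.1
  have : FiniteDimensional ℝ (Y ⧸ F) := hF.2
  let b := Module.finBasis ℝ (Y ⧸ F)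
  have h1 : Tendsto (fun k => b.equivFunL (F.mkQL (z k))) atTop (𝓝 0) := by
    rw [tendsto_pi_nhds]
    intro i
    exact hz ((ContinuousLinearMap.proj i).comp
      ((b.equivFunL : (Y ⧸ F) →L[ℝ] (Fin (Module.finrank ℝ (Y ⧸ F)) → ℝ)).comp F.mkQL))
  have h2 : Tendsto (fun k => F.mkQL (z k)) atTop (𝓝 0) := by
    have := (b.equivFunL.symm.continuous.tendsto 0).comp h1
    simpa [Function.comp_def] using this
  have h3 := (NormedAddGroup.tendsto_nhds_zero.1 h2 (η / 2) (by positivity)).exists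
  obtain ⟨k, hk⟩ := h3
  obtain ⟨m, hm, hm'⟩ := Submodule.Quotient.norm_mk_lt (F.mkQL (z k)) (ε := η / 2) (by positivity)
  refine ⟨k, z k - m, ?_, ?_⟩
  · rw [← Submodule.Quotient.eq]
    exact hm.symm
  · rw [sub_sub_cancel]
    linarith

theorem auc_unfold {N : Seminorm ℝ Y} {t : ℝ} (h : 0 < aucModulus N t) :
    ∃ δ : ℝ, 0 < δ ∧ ∀ x, N x = 1 → ∃ F : Submodule ℝ Y, IsCof F ∧
      ∀ y ∈ F, N y = 1 → δ ≤ N (x + t • y) - 1 := by
  obtain ⟨δ, hδ0, hδ⟩ := EReal.lt_iff_exists_real_btwn.1 h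
  refine ⟨δ, by exact_mod_cast hδ0, fun x hx => ?_⟩
  have h1 := hδ.trans_le (iInf₂_le x hx)
  rw [lt_iSup_iff] at h1
  obtain ⟨F, h1⟩ := h1
  rw [lt_iSup_iff] at h1
  obtain ⟨hF, h1⟩ := h1
  refine ⟨F, hF, fun y hy hNy => ?_⟩
  have h2 := h1.trans_le (iInf₂_le y ⟨hy, hNy⟩)
  exact_mod_cast h2.le

theorem auc_step {N : Seminorm ℝ Y} {c C δ : ℝ} (hc : 0 < c) (hC : 0 < C) (hδ : 0 < δ)
    (hN : ∀ x, c * ‖x‖ ≤ N x ∧ N x ≤ C * ‖x‖)
    (hA : ∀ x, N x = 1 → ∃ F : Submodule ℝ Y, IsCof F ∧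
      ∀ y ∈ F, N y = 1 → δ ≤ N (x + (c / (2 * C)) • y) - 1)
    (x : Y) (hx1 : c ≤ N x) (hx2 : N x ≤ C) (z : ℕ → Y) (hz1 : ∀ k, 1 ≤ ‖z k‖)
    (hz : ∀ φ : Y →L[ℝ] ℝ, Tendsto (fun k => φ (z k)) atTop (𝓝 0)) :
    ∃ k, N x + δ * c / 2 ≤ N (x + z k) := by
  set r := N x with hr
  have hr0 : 0 < r := hc.trans_le hx1
  have hxh : N (r⁻¹ • x) = 1 := by
    rw [map_smul_eq_mul, Real.norm_eq_abs, abs_of_pos (inv_pos.2 hr0), inv_mul_cancel₀ hr0.ne']
  obtain ⟨F, hF, hFy⟩ := hA _ hxh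
  obtain ⟨k, y, hy, hky⟩ := exists_near_cof hF z hz
    (η := min (1 / 2) (δ * c / (2 * C))) (by positivity)
  have hk1 : ‖z k - y‖ < 1 / 2 := hky.trans_le (min_le_left _ _)
  have hk2 : ‖z k - y‖ < δ * c / (2 * C) := hky.trans_le (min_le_right _ _)
  have hy1 : 1 / 2 ≤ ‖y‖ := by
    have := norm_sub_norm_le (z k) y
    linarith [hz1 k]
  set s := N y with hs
  have hs1 : c / 2 ≤ s := by nlinarith [(hN y).1]
  have hs0 : 0 < s := by linarith
  have hyh : N (s⁻¹ • y) = 1 := by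
    rw [map_smul_eq_mul, Real.norm_eq_abs, abs_of_pos (inv_pos.2 hs0), inv_mul_cancel₀ hs0.ne']
  have h1 := hFy _ (F.smul_mem s⁻¹ hy) hyh
  set l := c / (2 * C) * r / s with hl
  have hl0 : 0 < l := by positivity
  have hl1 : l ≤ 1 := by
    rw [hl, div_le_one hs0]
    have : c / (2 * C) * r ≤ c / (2 * C) * C := by gcongr
    have h2 : c / (2 * C) * C = c / 2 := by field_simp
    linarith
  have h2 : r⁻¹ • x + (c / (2 * C)) • s⁻¹ • y
      = ((1 - l) * r⁻¹) • x + (l * r⁻¹) • (x + y) := by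
    have : l * r⁻¹ = c / (2 * C) * s⁻¹ := by rw [hl]; field_simp
    rw [smul_add, smul_smul, ← add_assoc, ← add_smul, this, ← this]
    congr 2
    ring
  have h3 : N (((1 - l) * r⁻¹) • x + (l * r⁻¹) • (x + y)) ≤ (1 - l) + l * r⁻¹ * N (x + y) := by
    refine (map_add_le_add N _ _).trans ?_
    rw [map_smul_eq_mul, map_smul_eq_mul, Real.norm_eq_abs, Real.norm_eq_abs,
      abs_of_nonneg (by have : 0 ≤ 1 - l := by linarith
                        positivity), abs_of_pos (by positivity), ← hr,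
      mul_assoc, inv_mul_cancel₀ hr0.ne', mul_one]
  rw [h2] at h1
  have h4 : δ ≤ l * (r⁻¹ * N (x + y) - 1) := by linarith
  have h5 : δ ≤ r⁻¹ * N (x + y) - 1 := by
    have : 0 < r⁻¹ * N (x + y) - 1 := by
      by_contra hcon
      push Not at hcon
      nlinarith
    nlinarith
  have h6 : r * (1 + δ) ≤ N (x + y) := by
    have : r * (1 + δ) ≤ r * (r⁻¹ * N (x + y)) := by gcongr; linarith
    rwa [← mul_assoc, mul_inv_cancel₀ hr0.ne', one_mul] at this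
  have h7 : N (x + y) ≤ N (x + z k) + N (y - z k) := by
    have : x + y = (x + z k) + (y - z k) := by abel
    rw [this]
    exact map_add_le_add N _ _
  have h8 : N (y - z k) ≤ δ * c / 2 := by
    refine (hN _).2.trans ?_
    rw [norm_sub_rev]
    have : C * ‖z k - y‖ ≤ C * (δ * c / (2 * C)) := by gcongr
    have h9 : C * (δ * c / (2 * C)) = δ * c / 2 := by field_simp
    linarith
  refine ⟨k, ?_⟩
  nlinarith

theorem not_aucRenormable_of_trees
    (h : ∀ n : ℕ, ∃ d : List ℕ → Y, (∀ t : List ℕ, t.length ≤ n → ‖d t‖ ≤ 1) ∧ 1 ≤ ‖d []‖ ∧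
      (∀ t k, t.length < n → 1 ≤ ‖d (k :: t) - d t‖) ∧
      ∀ (t : List ℕ) (φ : Y →L[ℝ] ℝ), Tendsto (fun k => φ (d (k :: t) - d t)) atTop (𝓝 0)) :
    ¬ AUCRenormable Y := by
  rintro ⟨N, ⟨c, C, hc, hC, hN⟩, hA⟩
  obtain ⟨δ, hδ, hA⟩ := auc_unfold (hA (c / (2 * C)) (by positivity))
  obtain ⟨n, hn⟩ := exists_nat_gt (C / (δ * c / 2))
  obtain ⟨d, hd1, hd2, hd3, hd4⟩ := h n
  have key : ∀ j ≤ n, ∃ t : List ℕ, t.length = j ∧ c + j * (δ * c / 2) ≤ N (d t) := by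
    intro j
    induction j with
    | zero =>
      intro _
      refine ⟨[], rfl, ?_⟩
      have := (hN (d [])).1
      simp only [CharP.cast_eq_zero, zero_mul, add_zero]
      nlinarith
    | succ j ih =>
      intro hj
      obtain ⟨t, ht, hNt⟩ := ih (by omega)
      have hpos : 0 ≤ (j : ℝ) * (δ * c / 2) := by positivity
      obtain ⟨k, hk⟩ := auc_step hc hC hδ hN hA (d t) (by linarith)
        ((hN _).2.trans (by nlinarith [hd1 t (by omega)])) (fun k => d (k :: t) - d t)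
        (fun k => hd3 t k (by omega)) (hd4 t)
      refine ⟨k :: t, by simp [ht], ?_⟩
      rw [add_sub_cancel] at hk
      push_cast
      linarith
  obtain ⟨t, ht, hNt⟩ := key n le_rfl
  have h1 : N (d t) ≤ C := (hN _).2.trans (by nlinarith [hd1 t ht.le])
  rw [div_lt_iff₀ (by positivity)] at hn
  linarith

end Vale.Agent.P069
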