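import Vale.Agent.P069.Defs

namespace Vale.Agent.P069

open scoped ENNReal

theorem reflexive_of_equiv {E H : Type} [NormedAddCommGroup E] [NormedSpace ℝ E]
    [NormedAddCommGroup H] [InnerProductSpace ℝ H] [CompleteSpace H] (e : E ≃L[ℝ] H) :
    IsReflexive E := by
  intro Φ
  -- the functional `h ↦ Φ (⟪h, e ·⟫)` on `H`
  let J : H →L[ℝ] StrongDual ℝ E :=
    ((ContinuousLinearMap.compL ℝ E H ℝ).flip (e : E →L[ℝ] H)).comp
      (innerSL ℝ (E := H) : H →L[ℝ] H →L[ℝ] ℝ)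
  have hJ : ∀ h x, J h x = inner ℝ h (e x) := fun h x => rfl
  let h0 : H := (InnerProductSpace.toDual ℝ H).symm (Φ.comp J)
  refine ⟨e.symm h0, ?_⟩
  ext φ
  let h : H := (InnerProductSpace.toDual ℝ H).symm (φ.comp (e.symm : H →L[ℝ] E))
  have hφ : φ = J h := by
    ext x
    rw [hJ, InnerProductSpace.toDual_symm_apply]
    simp
  rw [NormedSpace.dual_def, hφ, hJ]
  simp only [ContinuousLinearEquiv.apply_symm_apply]
  rw [real_inner_comm, InnerProductSpace.toDual_symm_apply]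
  rfl

theorem exists_quad {E : Type} [NormedAddCommGroup E] [NormedSpace ℝ E] (f : E →L[ℝ] ℝ)
    {ε : ℝ} (hε : 0 < ε) : ∃ x : E, ‖f‖ ^ 2 - ε ≤ 2 * f x - ‖x‖ ^ 2 := by
  by_cases hf : ‖f‖ = 0
  · exact ⟨0, by simp [hf, hε.le]⟩
  have hpos : 0 < ‖f‖ := lt_of_le_of_ne (norm_nonneg _) (Ne.symm hf)
  have hlt : ‖f‖ - ε / (2 * ‖f‖) < ‖f‖ := by
    have : 0 < ε / (2 * ‖f‖) := by positivity
    linarith
  obtain ⟨x, hx1, hx2⟩ := f.exists_lt_apply_of_lt_opNorm hlt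
  have key : ∀ z : E, ‖z‖ < 1 → ‖f‖ - ε / (2 * ‖f‖) < f z →
      ∃ x : E, ‖f‖ ^ 2 - ε ≤ 2 * f x - ‖x‖ ^ 2 := by
    intro z hz1 hz2
    refine ⟨‖f‖ • z, ?_⟩
    rw [map_smul, norm_smul, norm_norm, smul_eq_mul]
    have h1 : (‖f‖ * ‖z‖) ^ 2 ≤ ‖f‖ ^ 2 := by
      have : ‖f‖ * ‖z‖ ≤ ‖f‖ := by nlinarith [norm_nonneg z]
      exact pow_le_pow_left₀ (by positivity) this 2
    have h2 : ‖f‖ * (‖f‖ - ε / (2 * ‖f‖)) ≤ ‖f‖ * f z := by gcongr
    have h3 : ‖f‖ * (‖f‖ - ε / (2 * ‖f‖)) = ‖f‖ ^ 2 - ε / 2 := by field_simp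
    linarith
  rcases le_total 0 (f x) with h | h
  · exact key x hx1 (by rwa [Real.norm_eq_abs, abs_of_nonneg h] at hx2)
  · refine key (-x) (by simpa using hx1) ?_
    rw [Real.norm_eq_abs, abs_of_nonpos h] at hx2
    simpa using hx2

section lp2

variable {ι : Type} {E : ι → Type} [∀ n, NormedAddCommGroup (E n)]

theorem hasSum_norm_sq (f : lp E 2) : HasSum (fun i => ‖f i‖ ^ 2) (‖f‖ ^ 2) := by
  have := lp.hasSum_norm (p := 2) (by norm_num) f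
  simpa using this

theorem sum_norm_sq_le (f : lp E 2) (s : Finset ι) : ∑ i ∈ s, ‖f i‖ ^ 2 ≤ ‖f‖ ^ 2 :=
  sum_le_hasSum s (fun _ _ => by positivity) (hasSum_norm_sq f)

theorem memℓp_two_of {f : ∀ i, E i} {C : ℝ} (h : ∀ s : Finset ι, ∑ i ∈ s, ‖f i‖ ^ 2 ≤ C) :
    Memℓp f 2 := by
  apply memℓp_gen' (C := C)
  intro s
  simpa using h s

theorem norm_sum_single_sq [DecidableEq ι] (x : ∀ i, E i) (s : Finset ι) :
    ‖∑ i ∈ s, lp.single 2 i (x i)‖ ^ 2 = ∑ i ∈ s, ‖x i‖ ^ 2 := by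
  have := lp.norm_sum_single (p := 2) (by norm_num) x s
  simpa using this

variable [∀ n, NormedSpace ℝ (E n)]

theorem norm_sum_comp_eval_le (φ : ∀ n, StrongDual ℝ (E n)) (s : Finset ι) :
    ‖∑ n ∈ s, (φ n).comp (lp.evalCLM ℝ E 2 n)‖ ≤ √(∑ n ∈ s, ‖φ n‖ ^ 2) := by
  apply ContinuousLinearMap.opNorm_le_bound _ (Real.sqrt_nonneg _)
  intro x
  rw [sum_apply]
  calc ‖∑ n ∈ s, ((φ n).comp (lp.evalCLM ℝ E 2 n)) x‖
      ≤ ∑ n ∈ s, ‖φ n‖ * ‖x n‖ := by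
        refine (norm_sum_le _ _).trans (Finset.sum_le_sum fun n _ => ?_)
        exact (φ n).le_opNorm (x n)
    _ ≤ √(∑ n ∈ s, ‖φ n‖ ^ 2) * √(∑ n ∈ s, ‖x n‖ ^ 2) :=
        Real.sum_mul_le_sqrt_mul_sqrt _ _ _
    _ ≤ √(∑ n ∈ s, ‖φ n‖ ^ 2) * ‖x‖ := by
        gcongr
        exact Real.sqrt_le_iff.2 ⟨norm_nonneg _, sum_norm_sq_le x s⟩

theorem sum_norm_comp_single_le [DecidableEq ι] (ψ : StrongDual ℝ (lp E 2)) (s : Finset ι) :
    ∑ n ∈ s, ‖ψ.comp (lp.singleContinuousLinearMap ℝ E 2 n)‖ ^ 2 ≤ ‖ψ‖ ^ 2 := by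
  apply le_of_forall_pos_le_add
  intro ε hε
  have hε' : 0 < ε / (s.card + 1) := by positivity
  choose x hx using fun n => exists_quad (ψ.comp (lp.singleContinuousLinearMap ℝ E 2 n)) hε'
  have h1 : ∑ n ∈ s, (‖ψ.comp (lp.singleContinuousLinearMap ℝ E 2 n)‖ ^ 2 - ε / (s.card + 1))
      ≤ ∑ n ∈ s, (2 * ψ (lp.single 2 n (x n)) - ‖x n‖ ^ 2) :=
    Finset.sum_le_sum fun n _ => hx n
  rw [Finset.sum_sub_distrib, Finset.sum_sub_distrib, ← Finset.mul_sum, ← map_sum,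
    ← norm_sum_single_sq x, Finset.sum_const, nsmul_eq_mul] at h1
  set z := ∑ n ∈ s, lp.single 2 n (x n)
  have h2 : ψ z ≤ ‖ψ‖ * ‖z‖ := (le_abs_self _).trans (ψ.le_opNorm z)
  have h3 : (s.card : ℝ) * (ε / (s.card + 1)) ≤ ε := by
    rw [← mul_div_assoc, div_le_iff₀ (by positivity)]
    nlinarith
  nlinarith [sq_nonneg (‖ψ‖ - ‖z‖)]

theorem hasSum_dual [DecidableEq ι] (ψ : StrongDual ℝ (lp E 2)) :
    HasSum (fun n => (ψ.comp (lp.singleContinuousLinearMap ℝ E 2 n)).comp (lp.evalCLM ℝ E 2 n))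
      ψ := by
  have hs : Summable fun n => ‖ψ.comp (lp.singleContinuousLinearMap ℝ E 2 n)‖ ^ 2 :=
    summable_of_sum_le (fun _ => by positivity) (sum_norm_comp_single_le ψ)
  have hsum : Summable
      (fun n => (ψ.comp (lp.singleContinuousLinearMap ℝ E 2 n)).comp (lp.evalCLM ℝ E 2 n)) := by
    rw [summable_iff_vanishing_norm] at hs ⊢
    intro ε hε
    obtain ⟨s, hs⟩ := hs (ε ^ 2) (by positivity)
    refine ⟨s, fun t ht => ?_⟩
    refine (norm_sum_comp_eval_le _ t).trans_lt ?_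
    rw [Real.sqrt_lt' hε]
    exact (le_abs_self _).trans_lt (hs t ht)
  obtain ⟨ψ', hψ'⟩ := hsum
  have : ψ' = ψ := by
    ext x
    have h1 := (ContinuousLinearMap.apply ℝ ℝ x).hasSum hψ'
    have h2 := ψ.hasSum (lp.hasSum_single (p := 2) (by norm_num) x)
    exact h1.unique h2
  rwa [this] at hψ'

theorem reflexive_lp (h : ∀ n, IsReflexive (E n)) : IsReflexive (lp E 2) := by
  classical
  intro Φ
  choose y hy using fun n => h n
    (Φ.comp ((ContinuousLinearMap.compL ℝ (lp E 2) (E n) ℝ).flip (lp.evalCLM ℝ E 2 n)))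
  have hy' : ∀ n (φ : StrongDual ℝ (E n)), φ (y n) = Φ (φ.comp (lp.evalCLM ℝ E 2 n)) := by
    intro n φ
    have := congrArg (fun T => T φ) (hy n)
    exact this
  have hmem : Memℓp y 2 := by
    apply memℓp_two_of (C := ‖Φ‖ ^ 2)
    intro s
    choose g hg using fun n => exists_dual_vector'' ℝ (y n)
    let φ : ∀ n, StrongDual ℝ (E n) := fun n => ‖y n‖ • g n
    have h1 : Φ (∑ n ∈ s, (φ n).comp (lp.evalCLM ℝ E 2 n)) = ∑ n ∈ s, ‖y n‖ ^ 2 := by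
      rw [map_sum]
      refine Finset.sum_congr rfl fun n _ => ?_
      rw [← hy']
      simp [φ, (hg n).2, sq]
    have h2 : ‖∑ n ∈ s, (φ n).comp (lp.evalCLM ℝ E 2 n)‖ ≤ √(∑ n ∈ s, ‖y n‖ ^ 2) := by
      refine (norm_sum_comp_eval_le φ s).trans ?_
      gcongr with n _
      simp only [φ, norm_smul, norm_norm]
      nlinarith [(hg n).1, norm_nonneg (y n)]
    have h3 : ∑ n ∈ s, ‖y n‖ ^ 2 ≤ ‖Φ‖ * √(∑ n ∈ s, ‖y n‖ ^ 2) := by
      rw [← h1]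
      refine (le_abs_self _).trans ((Φ.le_opNorm _).trans ?_)
      rw [h1]
      gcongr
    have h4 : 0 ≤ ∑ n ∈ s, ‖y n‖ ^ 2 := by positivity
    nlinarith [Real.sq_sqrt h4, sq_nonneg (‖Φ‖ - √(∑ n ∈ s, ‖y n‖ ^ 2))]
  refine ⟨⟨y, hmem⟩, ?_⟩
  ext ψ
  rw [NormedSpace.dual_def]
  have h1 := Φ.hasSum (hasSum_dual ψ)
  have h2 := ψ.hasSum (lp.hasSum_single (p := 2) (by norm_num) (⟨y, hmem⟩ : lp E 2))
  refine h2.unique ?_
  convert h1 using 2 with n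
  rw [← hy']
  rfl

end lp2

end Vale.Agent.P069
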