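import Vale.Agent.P069.Tree
import Vale.Agent.P069.NotAUC

namespace Vale.Agent.P069

open scoped ENNReal
open Filter Topology

/-- The Hilbert space over the tree, renormed by the dual norm of height `n`. -/
def Yn (_n : ℕ) : Type := H

noncomputable instance (n : ℕ) : AddCommGroup (Yn n) := inferInstanceAs (AddCommGroup H)
noncomputable instance (n : ℕ) : Module ℝ (Yn n) := inferInstanceAs (Module ℝ H)

/-- The identity map. -/
noncomputable def toH (n : ℕ) : Yn n ≃ₗ[ℝ] H := LinearEquiv.refl ℝ H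

noncomputable instance (n : ℕ) : NormedAddCommGroup (Yn n) :=
  AddGroupNorm.toNormedAddCommGroup
    { toFun := fun y => pn n (toH n y)
      map_zero' := by
        have h1 := pn_le_norm n 0
        have h2 := pn_nonneg n 0
        rw [map_zero]
        rw [norm_zero] at h1
        exact le_antisymm h1 h2
      add_le' := fun x y => by rw [map_add]; exact pn_add n _ _
      neg' := fun x => by rw [map_neg]; exact pn_neg n _
      eq_zero_of_map_eq_zero' := fun x hx => by
        have h := norm_le_pn n (toH n x)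
        rw [hx, mul_zero, norm_le_zero_iff] at h
        exact (toH n).map_eq_zero_iff.1 h }

theorem norm_Yn (n : ℕ) (y : Yn n) : ‖y‖ = pn n (toH n y) := rfl

noncomputable instance (n : ℕ) : NormedSpace ℝ (Yn n) where
  norm_smul_le c x := by
    rw [norm_Yn, norm_Yn, map_smul]
    exact pn_smul n c _

/-- The identity map as a linear homeomorphism. -/
noncomputable def toHL (n : ℕ) : Yn n ≃L[ℝ] H :=
  (toH n).toContinuousLinearEquivOfBounds (n + 1) 1 (fun x => norm_le_pn n _)
    (fun x => by rw [one_mul, norm_Yn, LinearEquiv.apply_symm_apply]; exact pn_le_norm n x)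

theorem toHL_apply (n : ℕ) (y : Yn n) : toHL n y = toH n y := rfl

theorem norm_symm (n : ℕ) (h : H) : ‖(toHL n).symm h‖ = pn n h := rfl

instance (n : ℕ) : CompleteSpace (Yn n) :=
  (completeSpace_congr (e := (toHL n).toEquiv) (toHL n).isUniformEmbedding).2 inferInstance

/-- The counterexample space. -/
abbrev Y : Type := lp Yn 2

theorem Y_reflexive : IsReflexive Y := reflexive_lp fun n => reflexive_of_equiv (toHL n)

/-- Unit vector at a node. -/
noncomputable def e (t : List ℕ) : H := lp.single 2 t 1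

theorem e_apply (t u : List ℕ) : e t u = if u = t then 1 else 0 := by
  simp [e, lp.single_apply, Pi.single_apply]

theorem norm_e (t : List ℕ) : ‖e t‖ = 1 := by
  simp [e, lp.norm_single]

theorem inner_e (t : List ℕ) (a : H) : inner ℝ (e t) a = a t := by
  simp [e, lp.inner_single_left]

theorem S_e_of_lt (t u : List ℕ) (h : u.length < t.length) : S (e t) u = 0 := by
  induction u with
  | nil =>
    simp only [S, e_apply]
    rw [if_neg]
    rintro rfl
    simp at h
  | cons k u ih =>
    simp only [S, e_apply]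
    rw [if_neg, ih (by simp at h; omega), add_zero]
    rintro rfl
    simp at h

theorem abs_S_e (t u : List ℕ) : |S (e t) u| ≤ 1 := by
  induction u with
  | nil =>
    simp only [S, e_apply]
    split_ifs <;> simp
  | cons k u ih =>
    simp only [S, e_apply]
    split_ifs with h
    · rw [S_e_of_lt t u (by rw [← h]; simp)]; simp
    · simpa using ih

theorem one_le_pn_e (n : ℕ) (t : List ℕ) : 1 ≤ pn n (e t) := by
  have h := le_pn (n := n) (e t) (a := e t) ⟨(norm_e t).le, fun u _ => abs_S_e t u⟩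
  rwa [inner_e, e_apply, if_pos rfl] at h

/-- The branch functional. -/
noncomputable def dl : List ℕ → H
  | [] => e []
  | k :: t => e (k :: t) + dl t

theorem inner_dl (t : List ℕ) (a : H) : inner ℝ (dl t) a = S a t := by
  induction t with
  | nil => simp only [dl, S, inner_e]
  | cons k t ih => simp only [dl, S, inner_add_left, inner_e, ih]

theorem pn_dl (n : ℕ) (t : List ℕ) (ht : t.length ≤ n) : pn n (dl t) ≤ 1 :=
  pn_le fun a ha => by rw [inner_dl]; exact (le_abs_self _).trans (ha.2 t ht)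

theorem tendsto_e (φ : H →L[ℝ] ℝ) (t : List ℕ) :
    Tendsto (fun k => φ (e (k :: t))) atTop (𝓝 0) := by
  let h : H := (InnerProductSpace.toDual ℝ H).symm φ
  have h1 : ∀ u, φ (e u) = h u := by
    intro u
    rw [← inner_e, real_inner_comm, InnerProductSpace.toDual_symm_apply]
  simp only [h1]
  have h2 : Tendsto (fun u => ‖h u‖ ^ 2) cofinite (𝓝 0) :=
    (hasSum_norm_sq h).summable.tendsto_cofinite_zero
  have h3 : Tendsto (fun k : ℕ => k :: t) atTop cofinite := by
    rw [← Nat.cofinite_eq_atTop]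
    exact Function.Injective.tendsto_cofinite fun a b hab => (List.cons.inj hab).1
  have h4 := (h2.comp h3).sqrt
  rw [tendsto_zero_iff_norm_tendsto_zero]
  simpa [Function.comp_def, Real.sqrt_sq_eq_abs] using h4

/-- The embedding of the tree Hilbert space at level `n`. -/
noncomputable def emb (n : ℕ) : H →L[ℝ] Y :=
  (lp.singleContinuousLinearMap ℝ Yn 2 n).comp ((toHL n).symm : H →L[ℝ] Yn n)

theorem norm_emb (n : ℕ) (h : H) : ‖emb n h‖ = pn n h := by
  have : emb n h = lp.single 2 n ((toHL n).symm h) := rfl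
  rw [this, lp.norm_single (by norm_num), norm_symm]

theorem Y_not_auc : ¬ AUCRenormable Y := by
  apply not_aucRenormable_of_trees
  intro n
  refine ⟨fun t => emb n (dl t), fun t ht => ?_, ?_, fun t k _ => ?_, fun t φ => ?_⟩
  · rw [norm_emb]; exact pn_dl n t ht
  · rw [norm_emb]; exact one_le_pn_e n []
  · rw [← map_sub, norm_emb]
    simp only [dl, add_sub_cancel_right]
    exact one_le_pn_e n _
  · simp only [← map_sub, dl, add_sub_cancel_right]
    exact tendsto_e (φ.comp (emb n)) t

theorem Y_infinite : ¬ FiniteDimensional ℝ Y := by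
  intro hfin
  obtain ⟨k, y, hy, hk⟩ := exists_near_cof (Y := Y) (F := ⊥)
    ⟨by simp, inferInstance⟩ (fun k => emb 0 (e [k])) (fun φ => tendsto_e (φ.comp (emb 0)) [])
    (η := 1) one_pos
  rw [Submodule.mem_bot] at hy
  rw [hy, sub_zero, norm_emb] at hk
  linarith [one_le_pn_e 0 [k]]

/-- Coordinate functionals. -/
noncomputable def coord (p : ℕ × List ℕ) : Y →L[ℝ] ℝ :=
  (lp.evalCLM ℝ (fun _ : List ℕ => ℝ) 2 p.2).comp
    ((toHL p.1 : Yn p.1 →L[ℝ] H).comp (lp.evalCLM ℝ Yn 2 p.1))

theorem coord_apply (p : ℕ × List ℕ) (y : Y) : coord p y = toH p.1 (y p.1) p.2 := rfl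

/-- Finitely supported vectors. -/
noncomputable def FS : Submodule ℝ Y where
  carrier := {y | {p | coord p y ≠ 0}.Finite}
  add_mem' := by
    intro a b ha hb
    refine (ha.union hb).subset fun p hp => ?_
    by_contra hcon
    simp only [Set.mem_union, Set.mem_ofPred_eq, not_or, not_not] at hcon
    exact hp (by rw [map_add, hcon.1, hcon.2, add_zero])
  zero_mem' := by simp
  smul_mem' := by
    intro c a ha
    refine Set.Finite.subset ha fun p hp => ?_
    intro hcon
    exact hp (by rw [map_smul, hcon, smul_zero])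

theorem emb_e_mem (n : ℕ) (t : List ℕ) : emb n (e t) ∈ FS := by
  refine (Set.finite_singleton (n, t)).subset ?_
  rintro ⟨m, u⟩ hp
  by_contra hcon
  apply hp
  rw [coord_apply]
  have : emb n (e t) = lp.single 2 n ((toHL n).symm (e t)) := rfl
  rw [this]
  by_cases hm : m = n
  · subst hm
    rw [lp.single_apply_self]
    have hu : u ≠ t := by
      rintro rfl
      exact hcon rfl
    have : toH m ((toHL m).symm (e t)) = e t := rfl
    rw [this, e_apply, if_neg hu]
  · rw [lp.single_apply_ne _ _ _ hm, map_zero]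
    rfl

theorem FS_dense (x : Y) : x ∈ FS.topologicalClosure := by
  have hcl := FS.isClosed_topologicalClosure
  have h1 : ∀ n (h : H), emb n h ∈ FS.topologicalClosure := by
    intro n h
    have hs := (emb n).hasSum (lp.hasSum_single (p := 2) (by norm_num) h)
    refine hcl.mem_of_tendsto hs (Eventually.of_forall fun s => ?_)
    refine Submodule.sum_mem _ fun t _ => ?_
    have : lp.single 2 t (h t) = h t • e t := by
      rw [e, ← lp.single_smul, smul_eq_mul, mul_one]
    rw [this, map_smul]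
    exact Submodule.smul_mem _ _ (FS.le_topologicalClosure (emb_e_mem n t))
  have hs := lp.hasSum_single (p := 2) (by norm_num) x
  refine hcl.mem_of_tendsto hs (Eventually.of_forall fun s => ?_)
  exact Submodule.sum_mem _ fun n _ => h1 n (toH n (x n))

theorem exists_cof (x : Y) (hx : x ∈ FS) : ∃ F : Submodule ℝ Y, IsCof F ∧
    ∀ y ∈ F, 2 * ‖x‖ ^ 2 + ‖y‖ ^ 2 / 8 ≤ ‖x + y‖ ^ 2 + ‖x - y‖ ^ 2 := by
  let W : Set (ℕ × List ℕ) := ⋃ p ∈ {p | coord p x ≠ 0}, (fun u => (p.1, u)) '' {u | u <:+ p.2}
  have hW : W.Finite := by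
    refine Set.Finite.biUnion hx fun p _ => Set.Finite.image _ ?_
    refine (List.finite_toSet p.2.tails).subset fun u hu => ?_
    simpa using hu
  have : Fintype W := hW.fintype
  let L : Y →L[ℝ] (W → ℝ) := ContinuousLinearMap.pi fun p => coord p.1
  refine ⟨L.ker, ⟨L.isClosed_ker, ?_⟩, fun y hy => ?_⟩
  · exact (LinearMap.quotKerEquivRange (L : Y →ₗ[ℝ] (W → ℝ))).symm.finiteDimensional
  · have hy' : ∀ p ∈ W, coord p y = 0 := fun p hp => congrFun (LinearMap.mem_ker.1 hy) ⟨p, hp⟩
    have h1 := ((hasSum_norm_sq x).mul_left 2).add ((hasSum_norm_sq y).div_const 8)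
    have h2 := (hasSum_norm_sq (x + y)).add (hasSum_norm_sq (x - y))
    refine hasSum_le (fun n => ?_) h1 h2
    have hT : TailClosed {u | (n, u) ∈ W} := by
      intro k t ht
      simp only [W, Set.mem_iUnion, Set.mem_ofPred_eq, Set.mem_image, Prod.mk.injEq] at ht ⊢
      obtain ⟨p, hp, u, hu, rfl, rfl⟩ := ht
      exact ⟨p, hp, t, (List.suffix_cons k t).trans hu, rfl, rfl⟩
    have h3 := key_ineq hT n (toH n (x n)) (toH n (y n))
      (fun t ht => by
        by_contra hcon
        apply ht
        simp only [W, Set.mem_iUnion, Set.mem_ofPred_eq, Set.mem_image, Prod.mk.injEq]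
        exact ⟨(n, t), hcon, t, List.suffix_refl t, rfl, rfl⟩)
      (fun t ht => hy' (n, t) ht)
    rw [lp.coeFn_add, lp.coeFn_sub, Pi.add_apply, Pi.sub_apply]
    simp only [norm_Yn, map_add, map_sub]
    exact h3

theorem Y_amuc : IsAMUC (normSeminorm ℝ Y) := by
  intro t ht
  -- choose a small `η`
  obtain ⟨η, hη0, hη1, hη2⟩ : ∃ η : ℝ, 0 < η ∧ η ≤ 1 ∧ 10 * η ≤ t ^ 2 / 16 :=
    ⟨min 1 (t ^ 2 / 160), by positivity, min_le_left _ _, by
      have := min_le_right 1 (t ^ 2 / 160); linarith⟩
  have hη : (0 : EReal) < (η : EReal) := by exact_mod_cast hη0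
  refine hη.trans_le (le_iInf₂ fun x hx => ?_)
  have hx1 : ‖x‖ = 1 := hx
  have hcl : x ∈ closure (FS : Set Y) := FS_dense x
  obtain ⟨x', hx', hxx'⟩ := Metric.mem_closure_iff.1 hcl η hη0
  rw [dist_eq_norm] at hxx'
  obtain ⟨F, hF, hFy⟩ := exists_cof x' hx'
  refine le_iSup₂_of_le F hF (le_iInf₂ fun y hy => ?_)
  have hy1 : ‖y‖ = 1 := hy.2
  have h1 := hFy (t • y) (F.smul_mem t hy.1)
  rw [norm_smul, hy1, Real.norm_eq_abs, abs_of_pos ht, mul_one] at h1
  rw [EReal.coe_le_coe_iff]
  simp only [coe_normSeminorm]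
  set M := max ‖x + t • y‖ ‖x - t • y‖ with hM
  have h2 : ‖x' + t • y‖ ≤ M + η := by
    have : x' + t • y = (x + t • y) - (x - x') := by abel
    rw [this]
    refine (norm_sub_le _ _).trans ?_
    linarith [le_max_left ‖x + t • y‖ ‖x - t • y‖]
  have h3 : ‖x' - t • y‖ ≤ M + η := by
    have : x' - t • y = (x - t • y) - (x - x') := by abel
    rw [this]
    refine (norm_sub_le _ _).trans ?_
    linarith [le_max_right ‖x + t • y‖ ‖x - t • y‖]
  have h4 : 1 - η ≤ ‖x'‖ := by
    have := norm_sub_norm_le x x'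
    linarith
  have h5 : ‖x' + t • y‖ ^ 2 ≤ (M + η) ^ 2 := by gcongr
  have h6 : ‖x' - t • y‖ ^ 2 ≤ (M + η) ^ 2 := by gcongr
  have h7 : (1 - η) ^ 2 ≤ ‖x'‖ ^ 2 := by
    have : 0 ≤ 1 - η := by linarith
    gcongr
  have h8 : (1 + 2 * η) ^ 2 ≤ (M + η) ^ 2 := by nlinarith
  have h9 : 0 ≤ M + η := (norm_nonneg _).trans h2
  have := abs_le_of_sq_le_sq' h8 h9
  linarith [this.2]

theorem main : ∃ (X : Type) (_ : NormedAddCommGroup X) (_ : NormedSpace ℝ X),
    CompleteSpace X ∧ ¬ FiniteDimensional ℝ X ∧ IsReflexive X ∧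
      AMUCRenormable X ∧ ¬ AUCRenormable X :=
  ⟨Y, inferInstance, inferInstance, inferInstance, Y_infinite, Y_reflexive,
    ⟨normSeminorm ℝ Y, ⟨1, 1, one_pos, one_pos, fun x => by simp⟩, Y_amuc⟩, Y_not_auc⟩

end Vale.Agent.P069
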