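import Vale.Agent.P069.Reflexive

namespace Vale.Agent.P069

open scoped ENNReal

/-- The Hilbert space over the countably branching tree. -/
abbrev H : Type := lp (fun _ : List ℕ => ℝ) 2

/-- Sum along the branch ending at a node. -/
def S (a : List ℕ → ℝ) : List ℕ → ℝ
  | [] => a []
  | k :: t => a (k :: t) + S a t

theorem S_add (a b : List ℕ → ℝ) (t : List ℕ) : S (a + b) t = S a t + S b t := by
  induction t with
  | nil => simp [S]
  | cons k t ih => simp only [S, Pi.add_apply, ih]; ring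

theorem S_smul (c : ℝ) (a : List ℕ → ℝ) (t : List ℕ) : S (c • a) t = c * S a t := by
  induction t with
  | nil => simp [S]
  | cons k t ih => simp only [S, Pi.smul_apply, ih, smul_eq_mul]; ring

theorem S_sub (a b : List ℕ → ℝ) (t : List ℕ) : S (a - b) t = S a t - S b t := by
  induction t with
  | nil => simp [S]
  | cons k t ih => simp only [S, Pi.sub_apply, ih]; ring

theorem abs_apply_le (a : H) (t : List ℕ) : |a t| ≤ ‖a‖ :=
  lp.norm_apply_le_norm (by norm_num) a t

theorem abs_S_le (a : H) (t : List ℕ) : |S a t| ≤ (t.length + 1) * ‖a‖ := by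
  induction t with
  | nil => simpa [S] using abs_apply_le a []
  | cons k t ih =>
    simp only [S, List.length_cons]
    refine (abs_add_le _ _).trans ?_
    have := abs_apply_le a (k :: t)
    push_cast
    linarith

/-- Membership in `r` times the predual unit ball. -/
def Bd (n : ℕ) (r : ℝ) (a : H) : Prop :=
  ‖a‖ ≤ r ∧ ∀ t : List ℕ, t.length ≤ n → |S a t| ≤ r

theorem Bd.nonneg {n : ℕ} {r : ℝ} {a : H} (h : Bd n r a) : 0 ≤ r := (norm_nonneg _).trans h.1

theorem Bd.smul {n : ℕ} {r : ℝ} {a : H} (h : Bd n r a) (c : ℝ) : Bd n (|c| * r) (c • a) := by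
  refine ⟨?_, fun t ht => ?_⟩
  · rw [norm_smul, Real.norm_eq_abs]; gcongr; exact h.1
  · rw [lp.coeFn_smul, S_smul, abs_mul]; gcongr; exact h.2 t ht

theorem Bd.sub {n : ℕ} {r s : ℝ} {a b : H} (h : Bd n r a) (h' : Bd n s b) :
    Bd n (r + s) (a - b) := by
  refine ⟨(norm_sub_le _ _).trans (add_le_add h.1 h'.1), fun t ht => ?_⟩
  rw [lp.coeFn_sub, S_sub]
  exact (abs_sub _ _).trans (add_le_add (h.2 t ht) (h'.2 t ht))

theorem Bd_zero (n : ℕ) : Bd n 1 0 := by
  refine ⟨by simp, fun t _ => ?_⟩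
  have := abs_S_le 0 t
  simp only [norm_zero, mul_zero] at this
  linarith

theorem Bd_self (n : ℕ) (a : H) : Bd n ((n + 1) * ‖a‖) a := by
  refine ⟨by nlinarith [norm_nonneg a, (Nat.cast_nonneg n : (0 : ℝ) ≤ n)], fun t ht => ?_⟩
  refine (abs_S_le a t).trans ?_
  gcongr

/-- The dual norm. -/
noncomputable def pn (n : ℕ) (y : H) : ℝ := ⨆ a : {a : H // Bd n 1 a}, inner ℝ y a.1

instance (n : ℕ) : Nonempty {a : H // Bd n 1 a} := ⟨⟨0, Bd_zero n⟩⟩

theorem inner_le_norm_of_Bd {n : ℕ} (y : H) {a : H} (h : Bd n 1 a) : inner ℝ y a ≤ ‖y‖ := by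
  refine (real_inner_le_norm y a).trans ?_
  nlinarith [h.1, norm_nonneg y]

theorem le_pn {n : ℕ} (y : H) {a : H} (h : Bd n 1 a) : inner ℝ y a ≤ pn n y := by
  refine le_ciSup (f := fun a : {a : H // Bd n 1 a} => inner ℝ y a.1) ⟨‖y‖, ?_⟩ ⟨a, h⟩
  rintro _ ⟨b, rfl⟩
  exact inner_le_norm_of_Bd y b.2

theorem pn_le {n : ℕ} {y : H} {C : ℝ} (h : ∀ a, Bd n 1 a → inner ℝ y a ≤ C) : pn n y ≤ C :=
  ciSup_le fun a => h a.1 a.2

theorem pn_nonneg (n : ℕ) (y : H) : 0 ≤ pn n y := by
  simpa using le_pn y (Bd_zero n)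

theorem pn_le_norm (n : ℕ) (y : H) : pn n y ≤ ‖y‖ := pn_le fun _ h => inner_le_norm_of_Bd y h

theorem inner_le_mul_pn {n : ℕ} (y : H) {a : H} {r : ℝ} (h : Bd n r a) :
    inner ℝ y a ≤ r * pn n y := by
  rcases h.nonneg.eq_or_lt with hr | hr
  · have : a = 0 := by
      have := h.1
      rw [← hr] at this
      exact norm_le_zero_iff.1 this
    simp [this, ← hr]
  · have h1 := h.smul r⁻¹
    rw [abs_of_pos (inv_pos.2 hr), inv_mul_cancel₀ hr.ne'] at h1
    have h2 := le_pn y h1
    rw [real_inner_smul_right, inv_mul_le_iff₀ hr] at h2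
    exact h2

theorem norm_le_pn (n : ℕ) (y : H) : ‖y‖ ≤ (n + 1) * pn n y := by
  have h := inner_le_mul_pn y (Bd_self n y)
  rw [real_inner_self_eq_norm_sq] at h
  rcases (norm_nonneg y).eq_or_lt with h0 | h0
  · rw [← h0]; have := pn_nonneg n y; positivity
  · nlinarith

theorem pn_add (n : ℕ) (x y : H) : pn n (x + y) ≤ pn n x + pn n y :=
  pn_le fun a h => by rw [inner_add_left]; exact add_le_add (le_pn x h) (le_pn y h)

theorem pn_smul (n : ℕ) (c : ℝ) (x : H) : pn n (c • x) ≤ |c| * pn n x :=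
  pn_le fun a h => by
    rw [real_inner_smul_left, ← real_inner_smul_right]
    simpa using inner_le_mul_pn x (h.smul c)

theorem pn_neg (n : ℕ) (x : H) : pn n (-x) = pn n x := by
  have key : ∀ x : H, pn n (-x) ≤ pn n x := fun x => by simpa using pn_smul n (-1) x
  exact le_antisymm (key x) (by simpa using key (-x))

theorem quad_le {n : ℕ} (y : H) {a : H} {R : ℝ} (h1 : ‖a‖ ^ 2 ≤ R)
    (h2 : ∀ t : List ℕ, t.length ≤ n → (S a t) ^ 2 ≤ R) : 2 * inner ℝ y a - R ≤ pn n y ^ 2 := by
  have hR : 0 ≤ R := (sq_nonneg _).trans h1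
  have hB : Bd n (√R) a :=
    ⟨Real.le_sqrt_of_sq_le h1, fun t ht => Real.abs_le_sqrt (h2 t ht)⟩
  have := inner_le_mul_pn y hB
  nlinarith [Real.sq_sqrt hR, sq_nonneg (√R - pn n y)]

theorem exists_quad_pn (n : ℕ) (y : H) {ε : ℝ} (hε : 0 < ε) :
    ∃ (a : H) (r : ℝ), Bd n r a ∧ pn n y ^ 2 - ε ≤ 2 * inner ℝ y a - r ^ 2 := by
  have hp := pn_nonneg n y
  have hlt : pn n y - ε / (2 * (pn n y + 1)) < pn n y := by
    have : 0 < ε / (2 * (pn n y + 1)) := by positivity
    linarith
  obtain ⟨a, ha⟩ := exists_lt_of_lt_ciSup hlt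
  refine ⟨pn n y • a.1, pn n y, by simpa [abs_of_nonneg hp] using a.2.smul (pn n y), ?_⟩
  rw [real_inner_smul_right]
  have h2 : pn n y * (pn n y - ε / (2 * (pn n y + 1))) ≤ pn n y * inner ℝ y a.1 := by gcongr
  have h3 : pn n y * (ε / (2 * (pn n y + 1))) ≤ ε / 2 := by
    rw [← mul_div_assoc, div_le_div_iff₀ (by positivity) (by positivity)]
    nlinarith
  nlinarith

theorem inner_eq_zero_of_disj {a b : H} (h : ∀ t, a t = 0 ∨ b t = 0) : inner ℝ a b = 0 := by
  rw [lp.inner_eq_tsum]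
  have : (fun t => inner ℝ (a t) (b t)) = fun _ => (0 : ℝ) := by
    funext t
    rcases h t with h | h <;> simp [h]
  rw [this, tsum_zero]

/-- An element of `H` dominated pointwise by another one. -/
noncomputable def mkLe (f : List ℕ → ℝ) (b : H) (h : ∀ t, |f t| ≤ |b t|) : H :=
  ⟨f, (lp.memℓp b).mono' h⟩

theorem mkLe_apply (f : List ℕ → ℝ) (b : H) (h : ∀ t, |f t| ≤ |b t|) (t : List ℕ) :
    mkLe f b h t = f t := rfl

theorem norm_le_of_abs_le {a b : H} (h : ∀ t, |a t| ≤ |b t|) : ‖a‖ ≤ ‖b‖ :=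
  lp.norm_mono (by norm_num) h

/-- A set of nodes closed under passing to the parent. -/
def TailClosed (T : Set (List ℕ)) : Prop := ∀ k t, k :: t ∈ T → t ∈ T

/-- Restriction to a set of nodes. -/
noncomputable def restr (T : Set (List ℕ)) (a : H) : H :=
  mkLe (T.indicator a) a fun t => by
    by_cases h : t ∈ T <;> simp [h]

theorem restr_mem {T : Set (List ℕ)} (a : H) {t : List ℕ} (h : t ∈ T) : restr T a t = a t := by
  simp [restr, mkLe_apply, h]

theorem restr_notMem {T : Set (List ℕ)} (a : H) {t : List ℕ} (h : t ∉ T) : restr T a t = 0 := by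
  simp [restr, mkLe_apply, h]

theorem S_restr_mem {T : Set (List ℕ)} (hT : TailClosed T) (a : H) (t : List ℕ) (h : t ∈ T) :
    S (restr T a) t = S a t := by
  induction t with
  | nil => simp only [S]; exact restr_mem a h
  | cons k t ih => simp only [S]; rw [restr_mem a h, ih (hT k t h)]

theorem Bd.restr {T : Set (List ℕ)} (hT : TailClosed T) {n : ℕ} {r : ℝ} {a : H} (h : Bd n r a) :
    Bd n r (restr T a) := by
  refine ⟨(norm_le_of_abs_le fun t => ?_).trans h.1, fun t => ?_⟩
  · by_cases ht : t ∈ T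
    · rw [restr_mem a ht]
    · rw [restr_notMem a ht]; simp
  · induction t with
    | nil =>
      intro ht
      by_cases hm : ([] : List ℕ) ∈ T
      · rw [S_restr_mem hT a _ hm]; exact h.2 _ ht
      · simp only [S]; rw [restr_notMem a hm]; simpa using h.nonneg
    | cons k t ih =>
      intro ht
      by_cases hm : k :: t ∈ T
      · rw [S_restr_mem hT a _ hm]; exact h.2 _ ht
      · simp only [S]
        rw [restr_notMem a hm, zero_add]
        exact ih (by simp at ht; omega)

theorem S_eq_zero_of_mem {T : Set (List ℕ)} (hT : TailClosed T) {b : List ℕ → ℝ}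
    (hb : ∀ t ∈ T, b t = 0) (t : List ℕ) (h : t ∈ T) : S b t = 0 := by
  induction t with
  | nil => exact hb _ h
  | cons k t ih => simp only [S]; rw [hb _ h, ih (hT k t h), add_zero]

/-- Discrete derivative along the tree. -/
def D (g : List ℕ → ℝ) : List ℕ → ℝ
  | [] => g []
  | k :: t => g (k :: t) - g t

theorem S_D (g : List ℕ → ℝ) (t : List ℕ) : S (D g) t = g t := by
  induction t with
  | nil => rfl
  | cons k t ih => simp only [S, D, ih]; ring

/-- The splitting lemma. -/
theorem exists_split {T : Set (List ℕ)} (hT : TailClosed T) (a b : H)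
    (ha : ∀ t ∉ T, a t = 0) (hb : ∀ t ∈ T, b t = 0) :
    ∃ b' : H, (∀ t ∈ T, b' t = 0) ∧ ‖b'‖ ≤ ‖b‖ ∧
      ∀ t, S b' t = if 0 ≤ S a t then min (S b t) 0 else max (S b t) 0 := by
  let g : List ℕ → ℝ := fun t => if 0 ≤ S a t then min (S b t) 0 else max (S b t) 0
  have hg0 : ∀ t ∈ T, g t = 0 := by
    intro t ht
    simp [g, S_eq_zero_of_mem hT hb t ht]
  have hD0 : ∀ t ∈ T, D g t = 0 := by
    intro t ht
    cases t with
    | nil => exact hg0 _ ht
    | cons k t => simp only [D]; rw [hg0 _ ht, hg0 _ (hT k t ht), sub_zero]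
  have hle : ∀ t, |D g t| ≤ |b t| := by
    intro t
    by_cases ht : t ∈ T
    · rw [hD0 t ht]; simp
    · cases t with
      | nil =>
        simp only [D, g, S, ha _ ht, le_refl, if_true]
        rcases le_total (b []) 0 with h | h
        · rw [min_eq_left h]
        · rw [min_eq_right h]; simp
      | cons k t =>
        simp only [D, g, S, ha _ ht, zero_add]
        split_ifs
        · simpa using abs_min_sub_min_le_max (b (k :: t) + S b t) 0 (S b t) 0
        · simpa using abs_max_sub_max_le_max (b (k :: t) + S b t) 0 (S b t) 0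
  refine ⟨mkLe (D g) b hle, hD0, norm_le_of_abs_le hle, fun t => S_D g t⟩

theorem norm_add_sq_of_disj {a b : H} (h : ∀ t, a t = 0 ∨ b t = 0) :
    ‖a + b‖ ^ 2 = ‖a‖ ^ 2 + ‖b‖ ^ 2 := by
  rw [norm_add_sq_real, inner_eq_zero_of_disj h]; ring

theorem key_aux {T : Set (List ℕ)} (hT : TailClosed T) {n : ℕ} (x y a b : H) {r s : ℝ}
    (hx : ∀ t ∉ T, x t = 0) (hy : ∀ t ∈ T, y t = 0)
    (ha : ∀ t ∉ T, a t = 0) (hb : ∀ t ∈ T, b t = 0) (har : Bd n r a) (hbs : Bd n s b) :
    4 * inner ℝ x a + 2 * inner ℝ y b - 2 * r ^ 2 - 2 * s ^ 2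
      ≤ pn n (x + y) ^ 2 + pn n (x - y) ^ 2 := by
  obtain ⟨b', hb'0, hb'n, hb'S⟩ := exists_split hT a b ha hb
  obtain ⟨c', hc'0, hc'n, hc'S⟩ := exists_split hT a (-b) ha (by
    intro t ht; simp [hb t ht])
  have hdisj : ∀ u v : H, (∀ t ∉ T, u t = 0) → (∀ t ∈ T, v t = 0) → ∀ t, u t = 0 ∨ v t = 0 := by
    intro u v hu hv t
    by_cases ht : t ∈ T
    · exact Or.inr (hv t ht)
    · exact Or.inl (hu t ht)
  have hr := har.nonneg
  have hs := hbs.nonneg
  have hSneg : ∀ t, S (-b : H) t = - S b t := by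
    intro t
    have := S_smul (-1) b t
    rw [neg_one_smul, neg_one_mul] at this
    rw [lp.coeFn_neg, this]
  -- bounds for a + b' and a + c'
  have hgen : ∀ (w d : H), (∀ t ∈ T, d t = 0) → ‖d‖ ≤ ‖w‖ → Bd n s w →
      (∀ t, S d t = if 0 ≤ S a t then min (S w t) 0 else max (S w t) 0) → ∀ z : H,
      2 * inner ℝ z (a + d) - (r ^ 2 + s ^ 2) ≤ pn n z ^ 2 := by
    intro w d hd0 hdn hw hdS z
    apply quad_le
    · rw [norm_add_sq_of_disj (hdisj a d ha hd0)]
      have h1 := har.1
      have h2 := hdn.trans hw.1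
      gcongr
    · intro t ht
      rw [lp.coeFn_add, S_add, hdS]
      have h1 := abs_le.1 (har.2 t ht)
      have h2 := abs_le.1 (hw.2 t ht)
      split_ifs with h
      · rcases le_total (S w t) 0 with h3 | h3
        · rw [min_eq_left h3]; nlinarith
        · rw [min_eq_right h3]; nlinarith
      · rcases le_total (S w t) 0 with h3 | h3
        · rw [max_eq_right h3]; nlinarith
        · rw [max_eq_left h3]; nlinarith
  have hnb : Bd n s (-b) := by simpa using hbs.smul (-1)
  have h1 := hgen b b' hb'0 hb'n hbs hb'S (x + y)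
  have h2 := hgen (-b) c' hc'0 hc'n hnb hc'S (x - y)
  have hbc : b' - c' = b := by
    have hS : ∀ t, S (b' - c' : H) t = S b t := by
      intro t
      rw [lp.coeFn_sub, S_sub, hb'S, hc'S, hSneg]
      split_ifs
      · rcases le_total (S b t) 0 with h3 | h3
        · rw [min_eq_left h3, min_eq_right (by linarith)]; ring
        · rw [min_eq_right h3, min_eq_left (by linarith)]; ring
      · rcases le_total (S b t) 0 with h3 | h3
        · rw [max_eq_right h3, max_eq_left (by linarith)]; ring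
        · rw [max_eq_left h3, max_eq_right (by linarith)]; ring
    ext t
    cases t with
    | nil => exact hS []
    | cons k t =>
      have e1 := hS (k :: t)
      have e2 := hS t
      simp only [S] at e1
      linarith
  have hxb : inner ℝ x b' = 0 := inner_eq_zero_of_disj (hdisj x b' hx hb'0)
  have hxc : inner ℝ x c' = 0 := inner_eq_zero_of_disj (hdisj x c' hx hc'0)
  have hyb : inner ℝ y b = inner ℝ y b' - inner ℝ y c' := by rw [← inner_sub_right, hbc]
  simp only [inner_add_left, inner_add_right, inner_sub_left, hxb, hxc] at h1 h2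
  linarith

theorem key_ineq {T : Set (List ℕ)} (hT : TailClosed T) (n : ℕ) (x y : H)
    (hx : ∀ t ∉ T, x t = 0) (hy : ∀ t ∈ T, y t = 0) :
    2 * pn n x ^ 2 + pn n y ^ 2 / 8 ≤ pn n (x + y) ^ 2 + pn n (x - y) ^ 2 := by
  apply le_of_forall_pos_le_add
  intro ε hε
  obtain ⟨a, r, har, ha⟩ := exists_quad_pn n x (ε := ε / 3) (by positivity)
  obtain ⟨b, s, hbs, hb⟩ := exists_quad_pn n y (ε := ε / 3) (by positivity)
  have h1 : Bd n (|(1 / 8 : ℝ)| * (s + s)) ((1 / 8 : ℝ) • (b - restr T b)) :=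
    (hbs.sub (hbs.restr hT)).smul _
  have h2 := key_aux hT x y (restr T a) ((1 / 8 : ℝ) • (b - restr T b)) hx hy
    (fun t ht => restr_notMem a ht)
    (fun t ht => by
      rw [lp.coeFn_smul, lp.coeFn_sub, Pi.smul_apply, Pi.sub_apply, restr_mem b ht]; simp)
    (har.restr hT) h1
  have h3 : inner ℝ x (restr T a) = inner ℝ x a := by
    have : inner ℝ x (a - restr T a) = 0 := inner_eq_zero_of_disj fun t => by
      by_cases ht : t ∈ T
      · right; simp [restr_mem a ht]
      · left; exact hx t ht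
    rw [inner_sub_right] at this
    linarith
  have h4 : inner ℝ y (restr T b) = 0 := inner_eq_zero_of_disj fun t => by
    by_cases ht : t ∈ T
    · left; exact hy t ht
    · right; exact restr_notMem b ht
  rw [h3, real_inner_smul_right, inner_sub_right, h4, abs_of_pos (by norm_num)] at h2
  nlinarith

end Vale.Agent.P069
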